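import Vale.Agent.P068.Main

/-! The matroid intersection conjecture (part (b) of Q1) for two arbitrary matroids, of any
cardinality and not assumed finitary, on a common ground set, whenever some common independent set
becomes spanning in one of the two matroids after adding finitely many elements; in particular
whenever one of the two matroids has finite rank or finite corank. -/

namespace Vale.Agent.Results.P068.AlmostSpanning

open Vale.Agent.P068

theorem result {α : Type*} (M N : Matroid α) (hE : M.E = N.E) :
    ((∃ J F : Set α, F.Finite ∧ F ⊆ M.E ∧ M.Indep J ∧ N.Indep J ∧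
        (M.closure (J ∪ F) = M.E ∨ N.closure (J ∪ F) = N.E)) →
      ∃ JM JN : Set α, Disjoint JM JN ∧ M.Indep (JM ∪ JN) ∧ N.Indep (JM ∪ JN) ∧
        M.closure JM ∪ N.closure JN = M.E) ∧
    ((M.RankFinite ∨ N.RankFinite ∨ M✶.RankFinite ∨ N✶.RankFinite) →
      ∃ JM JN : Set α, Disjoint JM JN ∧ M.Indep (JM ∪ JN) ∧ N.Indep (JM ∪ JN) ∧
        M.closure JM ∪ N.closure JN = M.E) := by
  refine ⟨?_, ?_⟩
  · rintro ⟨J, F, hF, hFE, hJM, hJN, h | h⟩
    · exact inter_of_almost_spanning hE hF hFE hJM hJN h.ge
    · exact Inter.symm hE.symm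
        (inter_of_almost_spanning hE.symm hF (hE ▸ hFE) hJN hJM h.ge)
  · rintro (h | h | h | h)
    · exact inter_of_rankFinite hE
    · exact Inter.symm hE.symm (inter_of_rankFinite hE.symm)
    · exact Inter.symm hE.symm (inter_of_dual_rankFinite hE.symm)
    · exact inter_of_dual_rankFinite hE

end Vale.Agent.Results.P068.AlmostSpanning
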